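import Vale.Agent.Lib.P126.LogForm

open scoped Pointwise
open Vale.Agent.Lib.P126

namespace Vale.Agent.Results.P126.QuasiDualityTwoSided

/-- Both inequalities of the duality conjecture hold for all pairs of origin-symmetric convex
bodies in every dimension at the absolute scale `a = 20`, with the factor `b` replaced by
`13 (1 + log N)^2`:
`log N(L°, 20 K°) ≤ 13 (1 + log N(K,L))^3` and
`log N(K,L) ≤ 13 (1 + log N(L°, K°/20))^3`. -/
theorem result (n : ℕ) (K L : Set (EuclideanSpace ℝ (Fin n)))
    (hK : IsSymmConvexBody K) (hL : IsSymmConvexBody L) :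
    Real.log (covNum (polarBody L) ((20 : ℝ) • polarBody K))
        ≤ 13 * (1 + Real.log (covNum K L)) ^ 3 ∧
      Real.log (covNum K L)
        ≤ 13 * (1 + Real.log (covNum (polarBody L) ((20 : ℝ)⁻¹ • polarBody K))) ^ 3 :=
  log_covNum_two_sided hK hL

end Vale.Agent.Results.P126.QuasiDualityTwoSided
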