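import Vale.Agent.Lib.P126.ScaleTwo
import Vale.Agent.Lib.P126.WeakDuality

open scoped Pointwise
open Vale.Agent.Lib.P126

namespace Vale.Agent.Results.P126.WeakDualityThreshold

/-- The scale `a = 2` is the exact threshold for dimension-free weak entropy duality:
for `a > 2` the number `N(L°, aK°)` is bounded by an explicit function of `N(K,L)` and `a` alone,
while for `a < 2` it is not bounded by any function of `N(K,L)`. -/
theorem result :
    (∀ a : ℝ, 2 < a → ∀ (n : ℕ) (K L : Set (EuclideanSpace ℝ (Fin n))),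
      IsSymmConvexBody K → IsSymmConvexBody L →
        covNum (polarBody L) (a • polarBody K)
          ≤ (2 * ⌈((covNum K L : ℝ) + 1) / (a - 2)⌉₊ + 1) ^ covNum K L) ∧
    (∀ a : ℝ, 0 < a → a < 2 → ∀ f : ℕ → ℕ,
      ∃ (n : ℕ) (K L : Set (EuclideanSpace ℝ (Fin n))), 1 ≤ n ∧
        IsSymmConvexBody K ∧ IsSymmConvexBody L ∧
          f (covNum K L) < covNum (polarBody L) (a • polarBody K)) := by
  refine ⟨fun a ha n K L hK hL => covNum_polar_le hK hL ha, ?_⟩
  intro a ha0 ha2 f
  -- choose `m` with `a (1 + 1/m) < 2`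
  obtain ⟨m, hm⟩ := exists_nat_gt (a / (2 - a))
  have h2a : 0 < 2 - a := by linarith
  have hmpos' : (0 : ℝ) < m := lt_of_le_of_lt (by positivity) hm
  have hmpos : 0 < m := by exact_mod_cast hmpos'
  have ham : a * (1 + 1 / m) < 2 := by
    rw [div_lt_iff₀ h2a] at hm
    have : a * (1 + 1 / (m : ℝ)) = a + a / m := by ring
    rw [this]
    have h3 : a / m < 2 - a := by rw [div_lt_iff₀ hmpos']; linarith
    linarith
  -- `k` dominates `f` on `{0, …, 2m+1}`
  set k : ℕ := (Finset.range (2 * m + 2)).sup f with hk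
  have hgap : 0 < 2 - a * (1 + 1 / m) := by linarith
  obtain ⟨n, hn⟩ := exists_nat_gt (2 * (k : ℝ) / (2 - a * (1 + 1 / m)))
  have hn2 : 2 * (k : ℝ) < n * (2 - a * (1 + 1 / m)) := by
    rwa [div_lt_iff₀ hgap] at hn
  have hnpos : 1 ≤ n := by
    rcases Nat.eq_zero_or_pos n with h | h
    · subst h
      simp only [Nat.cast_zero, zero_mul] at hn2
      have : (0 : ℝ) ≤ k := Nat.cast_nonneg k
      linarith
    · exact h
  have hK := bodyK_isSymmConvexBody n
  have hL : IsSymmConvexBody (l1Ball n (1 + 1 / m)) := l1Ball_isSymmConvexBody n (by positivity)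
  have hN2 : covNum (bodyK n) (l1Ball n (1 + 1 / m)) ≤ 2 * m + 1 := covNum_bodyK_le n m hmpos
  have hN1 : k + 1 ≤ covNum (polarBody (l1Ball n (1 + 1 / m))) (a • polarBody (bodyK n)) :=
    le_covNum (exists_finite_cover_polar hK hL ha0)
      (fun s hs => card_cover_gt n m k hmpos a ha0 hn2 s hs)
  refine ⟨n, bodyK n, l1Ball n (1 + 1 / m), hnpos, hK, hL, ?_⟩
  have hf : f (covNum (bodyK n) (l1Ball n (1 + 1 / m))) ≤ k :=
    Finset.le_sup (f := f) (Finset.mem_range.2 (by omega))
  omega

end Vale.Agent.Results.P126.WeakDualityThreshold
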