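import Vale.Agent.Lib.P126.Quad.Mul

open scoped Pointwise
open Vale.Agent.Lib.P126

namespace Vale.Agent.Results.P126.A01_InlineQuadratic

private theorem mono_aux {m s : ℕ} (hm : 1 ≤ m) (hms : m ≤ s) :
    171500 * (1 + Real.log m) * Real.log m ≤ 171500 * (1 + Real.log s) * Real.log s := by
  have hm' : (1 : ℝ) ≤ m := by exact_mod_cast hm
  have h1 : Real.log m ≤ Real.log s :=
    Real.log_le_log (by linarith) (by exact_mod_cast hms)
  have h0 : 0 ≤ Real.log m := Real.log_nonneg hm'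
  have h2 : (1 + Real.log m) * Real.log m ≤ (1 + Real.log s) * Real.log s :=
    mul_le_mul (by linarith) h1 h0 (by linarith)
  nlinarith

/-- Quadratic entropy duality at the absolute scale `70`, written without any definition of our own:
from every covering of `K` by `m` translates of `L` one gets a covering of `L°` by `M` translates of
`70 K°` with `log M ≤ 171500 (1 + log m) log m`, and from every covering of `L°` by `m` translates of
`K°/70` one gets a covering of `K` by `M` translates of `L` with the same bound. -/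
theorem result (n : ℕ) (K L : Set (EuclideanSpace ℝ (Fin n)))
    (hKc : IsCompact K) (hKv : Convex ℝ K) (hKi : (interior K).Nonempty) (hKs : ∀ x ∈ K, -x ∈ K)
    (hLc : IsCompact L) (hLv : Convex ℝ L) (hLi : (interior L).Nonempty) (hLs : ∀ x ∈ L, -x ∈ L) :
    (∀ s : Finset (EuclideanSpace ℝ (Fin n)), K ⊆ ⋃ x ∈ s, (x +ᵥ L) →
      ∃ t : Finset (EuclideanSpace ℝ (Fin n)),
        {y | ∀ x ∈ L, inner ℝ x y ≤ 1} ⊆
          ⋃ z ∈ t, (z +ᵥ ((70 : ℝ) • {y : EuclideanSpace ℝ (Fin n) | ∀ x ∈ K, inner ℝ x y ≤ 1})) ∧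
        Real.log t.card ≤ 171500 * (1 + Real.log s.card) * Real.log s.card) ∧
    (∀ t : Finset (EuclideanSpace ℝ (Fin n)),
      {y | ∀ x ∈ L, inner ℝ x y ≤ 1} ⊆
          ⋃ z ∈ t, (z +ᵥ ((70 : ℝ)⁻¹ • {y : EuclideanSpace ℝ (Fin n) | ∀ x ∈ K, inner ℝ x y ≤ 1})) →
      ∃ s : Finset (EuclideanSpace ℝ (Fin n)), K ⊆ ⋃ x ∈ s, (x +ᵥ L) ∧
        Real.log s.card ≤ 171500 * (1 + Real.log t.card) * Real.log t.card) := by
  have hK : IsSymmConvexBody K := ⟨hKc, hKv, hKi, hKs⟩
  have hL : IsSymmConvexBody L := ⟨hLc, hLv, hLi, hLs⟩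
  obtain ⟨h1, h2⟩ := log_covNum_quad_mul_two_sided hK hL
  constructor
  · intro s hs
    obtain ⟨t, htc, ht⟩ := exists_cover_card_eq
      (exists_finite_cover_polar hK hL (by norm_num : (0 : ℝ) < 70))
    refine ⟨t, ht, ?_⟩
    rw [htc]
    exact h1.trans (mono_aux (one_le_covNum hK hL) (covNum_le_card s hs))
  · intro t ht
    obtain ⟨s, hsc, hs⟩ := exists_cover_card_eq
      (exists_finite_cover hK.isCompact.isBounded hL.interior_nonempty)
    refine ⟨s, hs, ?_⟩
    rw [hsc]
    have hL1 : IsSymmConvexBody ((70 : ℝ)⁻¹ • polarBody K) :=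
      hK.polarBody.smul (inv_pos.2 (by norm_num))
    exact h2.trans (mono_aux (one_le_covNum hL.polarBody hL1) (covNum_le_card t ht))

end Vale.Agent.Results.P126.A01_InlineQuadratic
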