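import Vale.Agent.Results.P126.A_QuadraticDuality
import Vale.Agent.Results.P126.QuasiDualityTwoSided
import Vale.Agent.Results.P126.WeakDualityThreshold

namespace Vale.Agent.Results.P126.A0_Combined

open scoped Pointwise
open Vale.Agent.Lib.P126

/-- Entropy duality for arbitrary pairs of origin-symmetric convex bodies, in all dimensions:
(1) at the absolute scale `a = 70` both inequalities of the duality conjecture hold up to a quadratic
loss, `log N ≤ 70000 (1 + log N')^2`;
(2) at the smaller absolute scale `a = 20` they hold up to a cubic loss, `log N ≤ 13 (1 + log N')^3`;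
(3) for every scale `a > 2` the number `N(L°, aK°)` is bounded by an explicit function of `N(K,L)` and
`a` alone;
(4) for every scale `a < 2` the number `N(L°, aK°)` is not bounded by any function of `N(K,L)`. -/
theorem result :
    (∀ (n : ℕ) (K L : Set (EuclideanSpace ℝ (Fin n))),
      IsSymmConvexBody K → IsSymmConvexBody L →
        Real.log (covNum (polarBody L) ((70 : ℝ) • polarBody K))
            ≤ 70000 * (1 + Real.log (covNum K L)) ^ 2 ∧
          Real.log (covNum K L)
            ≤ 70000 * (1 + Real.log (covNum (polarBody L) ((70 : ℝ)⁻¹ • polarBody K))) ^ 2) ∧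
    (∀ (n : ℕ) (K L : Set (EuclideanSpace ℝ (Fin n))),
      IsSymmConvexBody K → IsSymmConvexBody L →
        Real.log (covNum (polarBody L) ((20 : ℝ) • polarBody K))
            ≤ 13 * (1 + Real.log (covNum K L)) ^ 3 ∧
          Real.log (covNum K L)
            ≤ 13 * (1 + Real.log (covNum (polarBody L) ((20 : ℝ)⁻¹ • polarBody K))) ^ 3) ∧
    (∀ a : ℝ, 2 < a → ∀ (n : ℕ) (K L : Set (EuclideanSpace ℝ (Fin n))),
      IsSymmConvexBody K → IsSymmConvexBody L →
        covNum (polarBody L) (a • polarBody K)
          ≤ (2 * ⌈((covNum K L : ℝ) + 1) / (a - 2)⌉₊ + 1) ^ covNum K L) ∧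
    (∀ a : ℝ, 0 < a → a < 2 → ∀ f : ℕ → ℕ,
      ∃ (n : ℕ) (K L : Set (EuclideanSpace ℝ (Fin n))), 1 ≤ n ∧
        IsSymmConvexBody K ∧ IsSymmConvexBody L ∧
          f (covNum K L) < covNum (polarBody L) (a • polarBody K)) :=
  ⟨fun n K L hK hL => Vale.Agent.Results.P126.A_QuadraticDuality.result n K L hK hL,
    fun n K L hK hL => Vale.Agent.Results.P126.QuasiDualityTwoSided.result n K L hK hL,
    Vale.Agent.Results.P126.WeakDualityThreshold.result.1,
    Vale.Agent.Results.P126.WeakDualityThreshold.result.2⟩

end Vale.Agent.Results.P126.A0_Combined
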