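import Vale.Agent.Lib.P126.Quad.Mul

open scoped Pointwise
open Vale.Agent.Lib.P126

namespace Vale.Agent.Results.P126.A1_QuadraticMul

/-- Both inequalities of the duality conjecture, in their multiplicative form, hold for all pairs of
origin-symmetric convex bodies in every dimension at the absolute scale `a = 70`, with the constant
`b` replaced by `171500 (1 + log N)`, `N` the covering number on the right-hand side:
`log N(L°, 70 K°) ≤ 171500 (1 + log N(K,L)) · log N(K,L)` and
`log N(K,L) ≤ 171500 (1 + log N(L°, K°/70)) · log N(L°, K°/70)`. -/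
theorem result (n : ℕ) (K L : Set (EuclideanSpace ℝ (Fin n)))
    (hK : IsSymmConvexBody K) (hL : IsSymmConvexBody L) :
    Real.log (covNum (polarBody L) ((70 : ℝ) • polarBody K))
        ≤ 171500 * (1 + Real.log (covNum K L)) * Real.log (covNum K L) ∧
      Real.log (covNum K L)
        ≤ 171500 * (1 + Real.log (covNum (polarBody L) ((70 : ℝ)⁻¹ • polarBody K))) *
            Real.log (covNum (polarBody L) ((70 : ℝ)⁻¹ • polarBody K)) :=
  log_covNum_quad_mul_two_sided hK hL

end Vale.Agent.Results.P126.A1_QuadraticMul
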