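import Vale.Agent.Lib.P126.Quasi

open scoped Pointwise
open Vale.Agent.Lib.P126

namespace Vale.Agent.Results.P126.QuasiPolynomialDuality

/-- Dimension-free quasi-polynomial entropy duality at the absolute scale `a = 20`:
with `m = N(K,L)` and `q = m (2⌈m/8⌉ + 1) + 1` (so `q ≤ 5 m²`),
`N(L°, 20 K°) ≤ 2 q^{(⌊log₂ q⌋ + 1) ⌊log₂ m⌋}`, i.e. `log N(L°, 20 K°) = O((1 + log N(K,L))³)`. -/
theorem result (n : ℕ) (K L : Set (EuclideanSpace ℝ (Fin n)))
    (hK : IsSymmConvexBody K) (hL : IsSymmConvexBody L) :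
    covNum (polarBody L) ((20 : ℝ) • polarBody K)
      ≤ 2 * (covNum K L * (2 * ⌈(covNum K L : ℝ) / 8⌉₊ + 1) + 1) ^
          ((Nat.log 2 (covNum K L * (2 * ⌈(covNum K L : ℝ) / 8⌉₊ + 1) + 1) + 1)
            * Nat.log 2 (covNum K L)) :=
  covNum_polar_le_quasi hK hL

end Vale.Agent.Results.P126.QuasiPolynomialDuality
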