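import Vale.Agent.Lib.P126.ScaleTwo

open scoped Pointwise
open Vale.Agent.Lib.P126

namespace Vale.Agent.Results.P126.ScaleAtLeastTwo

/-- The duality conjecture for metric entropy cannot hold with a scale constant `a < 2`,
whatever the constant `b` is. -/
theorem result : ∀ a b : ℝ, 1 ≤ a → a < 2 → 1 ≤ b → ¬ EntropyDuality a b := by
  intro a b ha1 ha2 hb H
  have ha0 : 0 < a := by linarith
  have hb0 : 0 < b := by linarith
  -- choose `m` with `a (1 + 1/m) < 2`
  obtain ⟨m, hm⟩ := exists_nat_gt (a / (2 - a))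
  have h2a : 0 < 2 - a := by linarith
  have hmpos' : (0 : ℝ) < m := lt_of_le_of_lt (by positivity) hm
  have hmpos : 0 < m := by exact_mod_cast hmpos'
  have ham : a * (1 + 1 / m) < 2 := by
    rw [div_lt_iff₀ h2a] at hm
    have : a * (1 + 1 / (m : ℝ)) = a + a / m := by ring
    rw [this]
    have h3 : a / m < 2 - a := by rw [div_lt_iff₀ hmpos']; linarith
    linarith
  -- choose `k` with `(2m+1)^b < k+1`
  obtain ⟨k, hk⟩ := exists_nat_gt (((2 * m + 1 : ℕ) : ℝ) ^ b)
  -- choose `n`
  have hgap : 0 < 2 - a * (1 + 1 / m) := by linarith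
  obtain ⟨n, hn⟩ := exists_nat_gt (2 * (k : ℝ) / (2 - a * (1 + 1 / m)))
  have hn2 : 2 * (k : ℝ) < n * (2 - a * (1 + 1 / m)) := by
    rwa [div_lt_iff₀ hgap] at hn
  have hnpos : 1 ≤ n := by
    rcases Nat.eq_zero_or_pos n with h | h
    · subst h
      simp only [Nat.cast_zero, zero_mul] at hn2
      have : (0 : ℝ) ≤ k := Nat.cast_nonneg k
      linarith
    · exact h
  have hK := bodyK_isSymmConvexBody n
  have hL : IsSymmConvexBody (l1Ball n (1 + 1 / m)) := l1Ball_isSymmConvexBody n (by positivity)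
  have hmain := (H n hnpos (bodyK n) (l1Ball n (1 + 1 / m)) hK hL).1
  have hN2 : covNum (bodyK n) (l1Ball n (1 + 1 / m)) ≤ 2 * m + 1 := covNum_bodyK_le n m hmpos
  have hN1 : k + 1 ≤ covNum (polarBody (l1Ball n (1 + 1 / m))) (a • polarBody (bodyK n)) :=
    le_covNum (exists_finite_cover_polar hK hL ha0)
      (fun s hs => card_cover_gt n m k hmpos a ha0 hn2 s hs)
  set N1 := covNum (polarBody (l1Ball n (1 + 1 / m))) (a • polarBody (bodyK n)) with hN1def
  set N2 := covNum (bodyK n) (l1Ball n (1 + 1 / m)) with hN2def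
  have hM : (1 : ℝ) ≤ ((2 * m + 1 : ℕ) : ℝ) := by
    have : 1 ≤ 2 * m + 1 := by omega
    exact_mod_cast this
  have hlog2 : Real.log N2 ≤ Real.log ((2 * m + 1 : ℕ) : ℝ) := by
    rcases Nat.eq_zero_or_pos N2 with h | h
    · rw [h]; simp only [Nat.cast_zero, Real.log_zero]; exact Real.log_nonneg hM
    · apply Real.log_le_log (by exact_mod_cast h)
      exact_mod_cast hN2
  have hlog1 : b * Real.log ((2 * m + 1 : ℕ) : ℝ) < Real.log N1 := by
    rw [← Real.log_rpow (by linarith)]
    apply Real.log_lt_log (by positivity)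
    have : ((k + 1 : ℕ) : ℝ) ≤ N1 := by exact_mod_cast hN1
    push_cast at this
    push_cast at hk ⊢
    linarith
  have h5 : Real.log ((2 * m + 1 : ℕ) : ℝ) < 1 / b * Real.log N1 := by
    rw [one_div, lt_inv_mul_iff₀ hb0]
    exact hlog1
  linarith

end Vale.Agent.Results.P126.ScaleAtLeastTwo
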